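import Vale.Agent.P254.H721.Env

/-!
P254, line (SP_0), row P4 (helper20): the one-variable functions which carry the column certificate
for `q ≥ 4`.  `w = r' + r r''`, `θ = r (1 + r')`, `S = r'`, `θ' = w + S²`, kernel multipliers
`μ = 43 m / 100`, `β = m / 2`, budgets `(10, 30, 4, 5)`; `il = 0` (mode 1) or `1 / c` (mode 0).
-/

set_option autoImplicit false

namespace Vale.Agent.P254.SP20

open Vale.Agent.P254

/-- `w - (43m/100) θ' - (m/2) S²` -/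
noncomputable def VV (m g : ℝ) : ℝ :=
  H721.wf g - 43 / 100 * m * (H721.wf g + H721.r1 g ^ 2) - 1 / 2 * m * H721.r1 g ^ 2

/-- the scalar function of the column `q` at the spectral value `g` -/
noncomputable def PHI (η m l1 l2 l3 l4 T0 l5 Y Z K q il g : ℝ) : ℝ :=
  K + η * ((q - 1) * H721.wf g + 43 / 100 * m * (g * H721.th g - q * (H721.wf g + H721.r1 g ^ 2))
      - 1 / 2 * m * (q * H721.r1 g ^ 2))
    + l4 * g + T0 * (g ^ 2 - q) - l5 * q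
    - η ^ 2 * q / 4 * ((1 - m) ^ 2 / 4 + m ^ 2 * H721.r1 g / 5)
    - (η * (1 - 43 / 100 * m) * H721.th g + l1 + l2 * g) ^ 2 / (4 * Y)
    - (η * VV m g + l3) ^ 2 / (4 * Z) - il * (g + H721.mm g) ^ 2

/-- `q ∈ [4,7]`, mode 1, `c = 5/3` -/
noncomputable def Phi5 (q Z K g : ℝ) : ℝ :=
  PHI (2 / 5) (30 / 100) (-45 / 100) (-85 / 1000) (-85 / 1000) (-13 / 100) (7 / 1000) (1 / 1000)
    (295 / 1000) Z K q 0 g

/-- `q ∈ [7,12]`, mode 1, `c = 8/3` -/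
noncomputable def Phi6 (q Z K g : ℝ) : ℝ :=
  PHI (5 / 8) (55 / 100) (-63 / 100) (-85 / 1000) (-105 / 1000) (-33 / 100) (7 / 1000) (5 / 10000)
    (289 / 1000) Z K q 0 g

/-- `q ∈ [12,40]`, mode 0, `c = 9/2` -/
noncomputable def Phi7 (q Z K g : ℝ) : ℝ :=
  PHI 1 (85 / 100) (-102 / 100) (-160 / 1000) (-95 / 1000) (-28 / 100) (20 / 1000) (1 / 1000)
    (365 / 1000) Z K q (2 / 9) g

/-- the six one-variable inequalities of row P4, `q ≤ 40` -/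
structure Phis : Prop where
  a5 : ∀ g, 0 ≤ Phi5 4 (1454 / 100000) (-163 / 1000) g
  b5 : ∀ g, 0 ≤ Phi5 7 (597 / 100000) (-311 / 1000) g
  a6 : ∀ g, 0 ≤ Phi6 7 (798 / 100000) (-482 / 1000) g
  b6 : ∀ g, 0 ≤ Phi6 12 (321 / 100000) (-775 / 1000) g
  a7 : ∀ g, 0 ≤ Phi7 12 (666 / 100000) (-506 / 1000) g
  b7 : ∀ g, 0 ≤ Phi7 40 (200 / 100000) (-506 / 1000) g

end Vale.Agent.P254.SP20
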