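import Vale.Agent.P254.SP.H20.R712
import Vale.Agent.P254.H721.R6
import Vale.Agent.P254.SP.H151.Glue

/-!
P254, line (SP_0), row P4 (helper20): the range `q ∈ [7,12]`, closed with helper721's two
one-variable inequalities.
-/

set_option autoImplicit false

namespace Vale.Agent.P254.SP20

open Vale.Agent.P254

theorem h712 (q : ℝ) (h7 : 7 ≤ q) (h12 : q ≤ 12) : SP151.PWm1 H156.F1inst q :=
  ⟨m712 q, pw712 H721.a6 H721.b6 h7 h12⟩

end Vale.Agent.P254.SP20
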