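import Vale.Agent.P254.SP.H425.Scal

/-!
P254, line (SP_0), row P4 (helper20): block (A) of the range `q ∈ [7,12]` (mode 1, `c = 8/3`).
-/

set_option autoImplicit false

namespace Vale.Agent.P254.SP20

open Vale.Agent.P254

theorem formA712 {S : ℝ} (h0 : 0 ≤ S) (h1 : S ≤ 1 / 2) (f al k : ℝ) :
    0 ≤ (8 / 3 - (1 + 1 / (3 / 5)) / 16) * f ^ 2 - (8 / 3 - 1) * (S * f + k) ^ 2
      - (1 + 3 / 5) * (S * f + k - 1 / 4 * f) ^ 2 - (8 / 3 - 1) * (S ^ 2 * al * f)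
      + 1 / 750 * al ^ 2 + 4 / 75 * (al * f) + 11 / 24 * (S ^ 2 * al ^ 2 + S ^ 2 * al * f)
      - 589 / 375 * f ^ 2 - 8 / 3 * (2 / 25) * f ^ 2 + 8 / 3 * 10 * k ^ 2 := by
  have h2 : 0 ≤ 1 / 2 - S := sub_nonneg.2 h1
  have p1 := mul_nonneg h0 h2
  have p2 := mul_nonneg (pow_nonneg h0 2) h2
  have p3 := mul_nonneg (pow_nonneg h0 3) h2
  set a : ℝ := 5 / 2 - 5 / 3 * S ^ 2 - 8 / 5 * (S - 1 / 4) ^ 2 - 589 / 375 - 16 / 75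
    - (49 / 15 * S - 2 / 5) ^ 2 * (5 / 117) with ha
  have ha0 : 0 ≤ a := by rw [ha]; nlinarith
  have hd0 : 0 ≤ 1 / 750 + 11 / 24 * S ^ 2 := by positivity
  have hT : (4 / 75 - (5 / 3 - 11 / 24) * S ^ 2) ^ 2 ≤ 4 * a * (1 / 750 + 11 / 24 * S ^ 2) := by
    rw [ha]; nlinarith
  have hq := SP425.quad_nonneg (x := f) (y := al) ha0 hd0 hT
  have hk : 0 ≤ 117 / 5 * (k - (49 / 15 * S - 2 / 5) * (5 / 117) * f) ^ 2 := by positivity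
  have e : (8 / 3 - (1 + 1 / (3 / 5)) / 16) * f ^ 2 - (8 / 3 - 1) * (S * f + k) ^ 2
      - (1 + 3 / 5) * (S * f + k - 1 / 4 * f) ^ 2 - (8 / 3 - 1) * (S ^ 2 * al * f)
      + 1 / 750 * al ^ 2 + 4 / 75 * (al * f) + 11 / 24 * (S ^ 2 * al ^ 2 + S ^ 2 * al * f)
      - 589 / 375 * f ^ 2 - 8 / 3 * (2 / 25) * f ^ 2 + 8 / 3 * 10 * k ^ 2
      = (a * f ^ 2 + (4 / 75 - (5 / 3 - 11 / 24) * S ^ 2) * (f * al)
        + (1 / 750 + 11 / 24 * S ^ 2) * al ^ 2)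
        + 117 / 5 * (k - (49 / 15 * S - 2 / 5) * (5 / 117) * f) ^ 2 := by
    rw [ha]; ring
  rw [e]
  exact add_nonneg hq hk

end Vale.Agent.P254.SP20
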