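import Vale.Agent.P254.SP.H425.Scal
import Vale.Agent.P254.SP.H515.BlockA
import Vale.Agent.P254.SP.H20.PhiQ
import Vale.Agent.P254.SP.H674.Q40PW
import Vale.Agent.P254.SP.H979.Alg

/-!
P254, line (SP_0), row P4 (helper20): the range `q ∈ [12,40]` (mode 0, `c = 9/2`) of the column
certificate, from the two one-variable inequalities `Phi7` at `q = 12` and `q = 40`.
-/

set_option autoImplicit false

namespace Vale.Agent.P254.SP20

open Vale.Agent.P254 Vale.Agent.P254.SP Vale.Agent.P254.SP38 Vale.Agent.P254.SP151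
open Vale.Agent.P254.H156 (F1inst)

/-- the one-variable function of mode 0; `z` stands for `1 / (4 zz)` -/
noncomputable def PhiZ (c ℓ L1 l2 l3 L4 L5 T0 Mt B4 ρ e1 e2 Y q z g S w θ θ1 L : ℝ) : ℝ :=
  c * ((q - 1) * w) - ℓ + L4 * g - L5 * q + T0 * (g ^ 2 - q) + Mt * (θ * g - θ1 * q)
    - B4 * S ^ 2 * q - e1 * q - e2 * S * q - c * ρ - L ^ 2
    - ((c - Mt) * θ + L1 + l2 * g) ^ 2 / (4 * Y)
    - (c * w + l3 - Mt * θ1 - B4 * S ^ 2) ^ 2 * z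

/-- **the form `(B)` of mode 0** -/
theorem formB_zero {c ν ρ b2 b3 b4 ℓ ℓ' L1 l2 l3 L4 L5 L6 T0 Mt B4 e1 e2 Y γ1 γ2 α β q q0 q1
    g S w θ θ1 L : ℝ} (x y ze k0 k1 k2 : ℝ)
    (hc : 0 < c) (hν : 0 < ν) (hρ : 0 ≤ ρ) (hq0 : 0 < q0) (h0 : q0 ≤ q) (h1 : q ≤ q1)
    (h01 : q0 < q1) (hb2 : 0 ≤ b2) (hb3 : 0 < b3) (hb4 : 0 < b4) (hℓ : ℓ ≤ ℓ')
    (he1 : γ1 ^ 2 ≤ 4 * (c * b3) * e1) (he2 : γ2 ^ 2 ≤ 4 * (c * b4) * (e2 * S))
    (hY0 : 0 < Y) (hY : Y ≤ -c + 2 * L6 - (l2 + T0) - c * ρ)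
    (hz0 : q0 ≤ 4 * (c * ν) * (α + β * q0)) (hz1 : q1 ≤ 4 * (c * ν) * (α + β * q1))
    (H0 : 0 ≤ PhiZ c ℓ' L1 l2 l3 L4 L5 T0 Mt B4 ρ e1 e2 Y q0 (α + β * q0) g S w θ θ1 L)
    (H1 : 0 ≤ PhiZ c ℓ' L1 l2 l3 L4 L5 T0 Mt B4 ρ e1 e2 Y q1 (α + β * q1) g S w θ θ1 L) :
    0 ≤ -(c * y ^ 2) + c * ((q - 1) * (w * x ^ 2) + w * x * ze + θ * x * y) - ℓ * x ^ 2
      - L ^ 2 * x ^ 2
      + L1 * (x * y) + (l2 + T0) * (g * x * y - y ^ 2) + (l3 + T0) * (x * ze)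
      + L4 * (g * x ^ 2) - L5 * q * x ^ 2
      + T0 * (g * g * x ^ 2 - g * x * y - 1 * x * (q * x + ze))
      + Mt * (θ * g * x ^ 2 - θ * x * y - θ1 * x * (q * x + ze))
      - B4 * (S ^ 2 * x * (q * x + ze))
      + 2 * L6 * y ^ 2 + x * (γ1 * k1 + γ2 * k2)
      + c * ν * q⁻¹ * ze ^ 2 + (c * b2 * q⁻¹ * k0 ^ 2 + c * b3 * q⁻¹ * k1 ^ 2 + c * b4 * q⁻¹ * k2 ^ 2)
      - c * ρ * (y ^ 2 + min 1 ((q - 1) ^ 2) * x ^ 2) := by
  have hq : 0 < q := by linarith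
  have hqi : 0 < q⁻¹ := inv_pos.2 hq
  have s1 : 0 ≤ c * b2 * q⁻¹ * k0 ^ 2 := by positivity
  have s2 : -(e1 * q * x ^ 2) ≤ x * (γ1 * k1) + c * b3 * q⁻¹ * k1 ^ 2 :=
    SP425.cross_le (by positivity) (by
      have e : 4 * (c * b3 * q⁻¹) * (e1 * q) = 4 * (c * b3) * e1 := by field_simp
      rw [e]; exact he1)
  have s3 : -(e2 * S * q * x ^ 2) ≤ x * (γ2 * k2) + c * b4 * q⁻¹ * k2 ^ 2 :=
    SP425.cross_le (by positivity) (by
      have e : 4 * (c * b4 * q⁻¹) * (e2 * S * q) = 4 * (c * b4) * (e2 * S) := by field_simp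
      rw [e]; exact he2)
  have z1 : 0 < c * ν * q⁻¹ := by positivity
  have k0' := mul_nonneg (sub_nonneg.2 h1) (sub_nonneg.2 hz0)
  have k1' := mul_nonneg (sub_nonneg.2 h0) (sub_nonneg.2 hz1)
  have z3 : q ≤ 4 * (c * ν) * (α + β * q) := by
    have h : 0 ≤ (q1 - q0) * (4 * (c * ν) * (α + β * q) - q) := by
      have e : (q1 - q0) * (4 * (c * ν) * (α + β * q) - q)
          = (q1 - q) * (4 * (c * ν) * (α + β * q0) - q0)
            + (q - q0) * (4 * (c * ν) * (α + β * q1) - q1) := by ring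
      rw [e]; exact add_nonneg k0' k1'
    have := nonneg_of_mul_nonneg_right h (sub_pos.2 h01)
    linarith
  have z2 : 1 ≤ 4 * (c * ν * q⁻¹) * (α + β * q) := by
    have h2 := mul_le_mul_of_nonneg_left z3 hqi.le
    rw [inv_mul_cancel₀ hq.ne'] at h2
    linarith [show q⁻¹ * (4 * (c * ν) * (α + β * q)) = 4 * (c * ν * q⁻¹) * (α + β * q) by ring]
  have hP : 0 ≤ PhiZ c ℓ' L1 l2 l3 L4 L5 T0 Mt B4 ρ e1 e2 Y q (α + β * q) g S w θ θ1 L := by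
    have m0 := mul_nonneg (sub_nonneg.2 h1) H0
    have m1 := mul_nonneg (sub_nonneg.2 h0) H1
    have e : (q1 - q0) * PhiZ c ℓ' L1 l2 l3 L4 L5 T0 Mt B4 ρ e1 e2 Y q (α + β * q) g S w θ θ1 L
        = (q1 - q) * PhiZ c ℓ' L1 l2 l3 L4 L5 T0 Mt B4 ρ e1 e2 Y q0 (α + β * q0) g S w θ θ1 L
          + (q - q0) * PhiZ c ℓ' L1 l2 l3 L4 L5 T0 Mt B4 ρ e1 e2 Y q1 (α + β * q1) g S w θ θ1 L := by
      unfold PhiZ; ring
    have h : 0 ≤ (q1 - q0)
        * PhiZ c ℓ' L1 l2 l3 L4 L5 T0 Mt B4 ρ e1 e2 Y q (α + β * q) g S w θ θ1 L := by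
      rw [e]; exact add_nonneg m0 m1
    exact nonneg_of_mul_nonneg_right h (sub_pos.2 h01)
  have hF := SP425.form3 (xx := c * ((q - 1) * w) - ℓ' + L4 * g - L5 * q + T0 * (g ^ 2 - q)
      + Mt * (θ * g - θ1 * q) - B4 * S ^ 2 * q - e1 * q - e2 * S * q - c * ρ - L ^ 2)
    (XY := (c - Mt) * θ + L1 + l2 * g) (XZ := c * w + l3 - Mt * θ1 - B4 * S ^ 2) (Y := Y)
    (ZZ := c * ν * q⁻¹) (z := α + β * q) (x := x) (y := y) (ze := ze) hY0 z1 z2 hP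
  have m1 : c * ρ * (min 1 ((q - 1) ^ 2) * x ^ 2) ≤ c * ρ * (1 * x ^ 2) :=
    mul_le_mul_of_nonneg_left (mul_le_mul_of_nonneg_right (min_le_left _ _) (sq_nonneg x))
      (by positivity)
  have m2 := mul_le_mul_of_nonneg_right hY (sq_nonneg y)
  have m3 := mul_le_mul_of_nonneg_right hℓ (sq_nonneg x)
  linarith [s1, s2, s3, hF, m1, m2, m3]

theorem log_92 : 9 / 2 * Real.log (9 / 2) - 9 / 2 ≤ (9 / 2 * (505 / 1000) : ℝ) := by
  have h := SP979.log_pade (u := 1 / 8) (by norm_num)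
  have e : Real.log (9 / 2) = 2 * Real.log 2 + Real.log (1 + 1 / 8) := by
    rw [← Real.log_rpow (by norm_num), ← Real.log_mul (by norm_num) (by norm_num)]
    norm_num
  have h2 := Real.log_two_lt_d9
  rw [e]
  norm_num at h ⊢
  linarith

/-- the numbers of the range `[12,40]` -/
noncomputable def m1240 : SP127.Mult0 3 where
  c := 9 / 2
  L1 := -459 / 100
  L2 := -18 / 25 + 9 / 100
  L3 := -171 / 400 + 9 / 100
  L4 := -63 / 50
  L5 := 9 / 2000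
  L6 := 5517 / 2000
  L7 := 63 / 400
  T0 := 9 / 100
  Mt := 6579 / 4000
  Mr := 0
  B4 := 153 / 80
  γ := ![fun _ => 0, fun _ => 27 / 40, fun g => 153 / 40 * Real.sqrt (F1inst.r' g)]

theorem phiZ_a7 {g : ℝ} (h : 0 ≤ Phi7 12 (666 / 100000) (-506 / 1000) g) :
    0 ≤ PhiZ (9 / 2) (9 / 2 * (505 / 1000)) (-459 / 100) (-18 / 25) (-171 / 400) (-63 / 50)
      (9 / 2000) (9 / 100) (6579 / 4000) (153 / 80) (1 / 1000) (81 / 12800) (2601 / 16000)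
      (9 / 2 * (365 / 1000)) 12
      (0 + 25 / 36 * 12) g (H721.r1 g) (H721.wf g) (H721.th g)
      (H721.wf g + H721.r1 g ^ 2) (g + H721.mm g) := by
  have e : PhiZ (9 / 2) (9 / 2 * (505 / 1000)) (-459 / 100) (-18 / 25) (-171 / 400) (-63 / 50)
      (9 / 2000) (9 / 100) (6579 / 4000) (153 / 80) (1 / 1000) (81 / 12800) (2601 / 16000)
      (9 / 2 * (365 / 1000)) 12
      (0 + 25 / 36 * 12) g (H721.r1 g) (H721.wf g) (H721.th g)
      (H721.wf g + H721.r1 g ^ 2) (g + H721.mm g)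
      = 9 / 2 * Phi7 12 (666 / 100000) (-506 / 1000) g
      + (-(9 / 2 * (505 / 1000)) - 9 / 2 * (1 / 1000) + 9 / 2 * (506 / 1000))
      + (9 / 2 * H721.wf g + -171 / 400 - 6579 / 4000 * (H721.wf g + H721.r1 g ^ 2)
        - 153 / 80 * H721.r1 g ^ 2) ^ 2
        * (1 / (4 * (9 / 2) * (666 / 100000)) - (0 + 25 / 36 * 12)) := by
    unfold PhiZ Phi7 PHI VV
    ring
  rw [e]
  have h2 : (0 : ℝ) ≤ 1 / (4 * (9 / 2) * (666 / 100000)) - (0 + 25 / 36 * 12) := by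
    norm_num
  have h3 := mul_nonneg (sq_nonneg (9 / 2 * H721.wf g + -171 / 400 - 6579 / 4000 * (H721.wf g + H721.r1 g ^ 2)
        - 153 / 80 * H721.r1 g ^ 2)) h2
  linarith

theorem phiZ_b7 {g : ℝ} (h : 0 ≤ Phi7 40 (200 / 100000) (-506 / 1000) g) :
    0 ≤ PhiZ (9 / 2) (9 / 2 * (505 / 1000)) (-459 / 100) (-18 / 25) (-171 / 400) (-63 / 50)
      (9 / 2000) (9 / 100) (6579 / 4000) (153 / 80) (1 / 1000) (81 / 12800) (2601 / 16000)
      (9 / 2 * (365 / 1000)) 40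
      (0 + 25 / 36 * 40) g (H721.r1 g) (H721.wf g) (H721.th g)
      (H721.wf g + H721.r1 g ^ 2) (g + H721.mm g) := by
  have e : PhiZ (9 / 2) (9 / 2 * (505 / 1000)) (-459 / 100) (-18 / 25) (-171 / 400) (-63 / 50)
      (9 / 2000) (9 / 100) (6579 / 4000) (153 / 80) (1 / 1000) (81 / 12800) (2601 / 16000)
      (9 / 2 * (365 / 1000)) 40
      (0 + 25 / 36 * 40) g (H721.r1 g) (H721.wf g) (H721.th g)
      (H721.wf g + H721.r1 g ^ 2) (g + H721.mm g)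
      = 9 / 2 * Phi7 40 (200 / 100000) (-506 / 1000) g
      + (-(9 / 2 * (505 / 1000)) - 9 / 2 * (1 / 1000) + 9 / 2 * (506 / 1000))
      + (9 / 2 * H721.wf g + -171 / 400 - 6579 / 4000 * (H721.wf g + H721.r1 g ^ 2)
        - 153 / 80 * H721.r1 g ^ 2) ^ 2
        * (1 / (4 * (9 / 2) * (200 / 100000)) - (0 + 25 / 36 * 40)) := by
    unfold PhiZ Phi7 PHI VV
    ring
  rw [e]
  have h2 : (0 : ℝ) ≤ 1 / (4 * (9 / 2) * (200 / 100000)) - (0 + 25 / 36 * 40) := by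
    norm_num
  have h3 := mul_nonneg (sq_nonneg (9 / 2 * H721.wf g + -171 / 400 - 6579 / 4000 * (H721.wf g + H721.r1 g ^ 2)
        - 153 / 80 * H721.r1 g ^ 2)) h2
  linarith

/-- **the range `[12,40]`** -/
theorem pw1240 (ha : ∀ g, 0 ≤ Phi7 12 (666 / 100000) (-506 / 1000) g)
    (hb : ∀ g, 0 ≤ Phi7 40 (200 / 100000) (-506 / 1000) g) {q : ℝ} (h12 : 12 ≤ q) (h40 : q ≤ 40) :
    SP127.PW0 F1inst q (2 / 25) 10 (1 / 1000) (wfam F1inst) bfam m1240 where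
  c_pos := by norm_num [m1240]
  L6_nonneg := by norm_num [m1240]
  ker := by
    intro x y
    have hp : 0 < F1inst.r' x := F1inst.r'_pos x
    have hs : Real.sqrt (F1inst.r' x) ≠ 0 := (Real.sqrt_pos.2 hp).ne'
    have e : 153 / 40 * Real.sqrt (F1inst.r' x) * (ktot F1inst (43 / 100) (1 / 2) x y
        / Real.sqrt (F1inst.r' x)) = 153 / 40 * ktot F1inst (43 / 100) (1 / 2) x y := by
      field_simp
    have e2 : (∑ i, m1240.γ i x * wfam F1inst i x y) = 27 / 40 * ck F1inst x y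
        + 153 / 40 * Real.sqrt (F1inst.r' x)
        * (ktot F1inst (43 / 100) (1 / 2) x y / Real.sqrt (F1inst.r' x)) := by
      rw [Fin.sum_univ_three]
      simp [m1240, wfam]
    rw [e2, e]
    unfold ktot m1240
    ring
  formA := SP.H515.formA_1240 F1inst m1240 rfl rfl rfl rfl rfl
  formB := by
    intro g x y ze ka
    have e1 : F1inst.r' g = H721.r1 g := H674.br_r1 g
    have e3 : F1inst.L g = g + H721.mm g := by
      have h1 : F1inst.L g = H721.L g := rfl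
      have h2 := H721.mm_eq g
      rw [h1]; linarith
    have h := formB_zero (c := 9 / 2) (ν := 2 / 25)
      (ρ := 1 / 1000) (b2 := 30) (b3 := 4) (b4 := 5) (ℓ := 9 / 2 * Real.log (9 / 2) - 9 / 2)
      (ℓ' := 9 / 2 * (505 / 1000)) (L1 := -459 / 100) (l2 := -18 / 25) (l3 := -171 / 400) (L4 := -63 / 50)
      (L5 := 9 / 2000) (L6 := 5517 / 2000) (T0 := 9 / 100) (Mt := 6579 / 4000) (B4 := 153 / 80)
      (e1 := 81 / 12800) (e2 := 2601 / 16000) (Y := 9 / 2 * (365 / 1000)) (γ1 := 27 / 40)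
      (γ2 := 153 / 40 * Real.sqrt (H721.r1 g)) (α := 0) (β := 25 / 36) (q := q)
      (q0 := 12) (q1 := 40) (g := g) (S := H721.r1 g) (w := H721.wf g) (θ := H721.th g)
      (θ1 := H721.wf g + H721.r1 g ^ 2) (L := g + H721.mm g) x y ze (ka 0) (ka 1) (ka 2)
      (by norm_num) (by norm_num) (by norm_num) (by norm_num) h12 h40 (by norm_num) (by norm_num)
      (by norm_num) (by norm_num) log_92 (by norm_num)
      (by rw [mul_pow, Real.sq_sqrt (H721.r1_pos g).le]; exact le_of_eq (by ring))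
      (by norm_num) (by norm_num) (by norm_num) (by norm_num)
      (phiZ_a7 (ha g)) (phiZ_b7 (hb g))
    have i3 : (∑ i, m1240.γ i g * ka i) = 27 / 40 * ka 1 + 153 / 40 * Real.sqrt (H721.r1 g) * ka 2 := by
      rw [Fin.sum_univ_three]
      show 0 * ka 0 + 27 / 40 * ka 1 + 153 / 40 * Real.sqrt (F1inst.r' g) * ka 2 = _
      rw [e1]
      ring
    have i4 : ∑ i, (9 / 2 : ℝ) * bfam i * q⁻¹ * ka i ^ 2 = 9 / 2 * 30 * q⁻¹ * ka 0 ^ 2
        + 9 / 2 * 4 * q⁻¹ * ka 1 ^ 2 + 9 / 2 * 5 * q⁻¹ * ka 2 ^ 2 := by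
      rw [Fin.sum_univ_three]
      simp [bfam]
    unfold SP127.FormB0
    rw [i3, H674.br_w, H674.br_th, H674.br_th1, e1, e3]
    show (0 : ℝ) ≤ -(9 / 2 * y ^ 2)
      + 9 / 2 * ((q - 1) * (H721.wf g * x ^ 2) + H721.wf g * x * ze + H721.th g * x * y)
      + (9 / 2 - 9 / 2 * Real.log (9 / 2)) * x ^ 2 - (g + H721.mm g) ^ 2 * x ^ 2
      + -459 / 100 * (x * y) + (-18 / 25 + 9 / 100) * (g * x * y - y ^ 2)
      + (-171 / 400 + 9 / 100) * (x * ze)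
      + -63 / 50 * (g * x ^ 2) - 9 / 2000 * q * x ^ 2
      + 9 / 100 * (g * g * x ^ 2 - g * x * y - 1 * x * (q * x + ze))
      + 6579 / 4000 * (H721.th g * g * x ^ 2 - H721.th g * x * y
        - (H721.wf g + H721.r1 g ^ 2) * x * (q * x + ze))
      + 0 * (F1inst.r g * g * x ^ 2 - F1inst.r g * x * y - H721.r1 g * x * (q * x + ze))
      - 153 / 80 * (H721.r1 g ^ 2 * x * (q * x + ze))
      + 2 * (5517 / 2000) * y ^ 2 + x * (27 / 40 * ka 1 + 153 / 40 * Real.sqrt (H721.r1 g) * ka 2)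
      + 9 / 2 * (2 / 25) * q⁻¹ * ze ^ 2 + ∑ i, (9 / 2 : ℝ) * bfam i * q⁻¹ * ka i ^ 2
      - 9 / 2 * (1 / 1000) * (y ^ 2 + min 1 ((q - 1) ^ 2) * x ^ 2)
    rw [i4]
    linarith

end Vale.Agent.P254.SP20
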