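import Vale.Agent.P254.SP.H20.A712
import Vale.Agent.P254.SP.H20.PhiQ
import Vale.Agent.P254.SP.H674.Q40PW
import Vale.Agent.P254.SP.H979.Alg

/-!
P254, line (SP_0), row P4 (helper20): the range `q ∈ [7,12]` (mode 1, `c = 8/3`) of the column
certificate, from the two one-variable inequalities `Phi6` at `q = 7` and `q = 12`.
-/

set_option autoImplicit false

namespace Vale.Agent.P254.SP20

open Vale.Agent.P254 Vale.Agent.P254.SP Vale.Agent.P254.SP38 Vale.Agent.P254.SP151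
open Vale.Agent.P254.H156 (F1inst)

theorem log_83 : 8 / 3 * Real.log (8 / 3) - 8 / 3 + 1 ≤ (951 / 1000 : ℝ) := by
  have h := SP979.log_pade (u := 1 / 3) (by norm_num)
  have e : Real.log (8 / 3) = Real.log 2 + Real.log (1 + 1 / 3) := by
    rw [← Real.log_mul (by norm_num) (by norm_num)]
    norm_num
  have h2 := Real.log_two_lt_d9
  rw [e]
  norm_num at h ⊢
  linarith

/-- the numbers of the range `[7,12]` -/
noncomputable def m712 (q : ℝ) : SP38.Mult 3 where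
  c := 8 / 3
  σ := 3 / 5
  L1 := -168 / 100
  L2 := -17 / 75 + 7 / 375
  L3 := -7 / 25 + 7 / 375 + 20 / 17 * (q - 1) / 64
  L4 := -22 / 25
  L5 := 1 / 750
  L6 := 589 / 375
  L7 := 4 / 75
  T0 := 7 / 375
  Mt := 473 / 1200
  Mr := 0
  B4 := 11 / 24
  γ := ![fun _ => 0, fun _ => 3 / 4, fun g => 11 / 12 * Real.sqrt (F1inst.r' g)]

theorem phiB_a6 {g : ℝ} (h : 0 ≤ Phi6 7 (798 / 100000) (-482 / 1000) g) :
    0 ≤ SP425.PhiB (8 / 3) (951 / 1000) (-168 / 100) (-17 / 75) (-7 / 25) (-22 / 25) (1 / 750)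
      (7 / 375) (473 / 1200) (11 / 24) (20 / 17) (1 / 1000) (27 / 2048) (121 / 7680) (289 / 375) 7
      (-126872 / 10000 + 34906 / 10000 * 7) g (H721.r1 g) (H721.wf g) (H721.th g)
      (H721.wf g + H721.r1 g ^ 2) := by
  have e : SP425.PhiB (8 / 3) (951 / 1000) (-168 / 100) (-17 / 75) (-7 / 25) (-22 / 25) (1 / 750)
      (7 / 375) (473 / 1200) (11 / 24) (20 / 17) (1 / 1000) (27 / 2048) (121 / 7680) (289 / 375) 7
      (-126872 / 10000 + 34906 / 10000 * 7) g (H721.r1 g) (H721.wf g) (H721.th g)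
      (H721.wf g + H721.r1 g ^ 2) = 8 / 3 * Phi6 7 (798 / 100000) (-482 / 1000) g
      + (-(951 / 1000) - 20 / 17 * (7 - 1) ^ 2 / 128 - 8 / 3 * (1 / 1000) + 8 / 3 * (482 / 1000))
      + ((8 / 3 - 1) * H721.wf g + -7 / 25 - 473 / 1200 * (H721.wf g + H721.r1 g ^ 2)
        - 11 / 24 * H721.r1 g ^ 2) ^ 2
        * (1 / (4 * (8 / 3) * (798 / 100000)) - (-126872 / 10000 + 34906 / 10000 * 7)) := by
    unfold SP425.PhiB Phi6 PHI VV
    ring
  rw [e]
  have h1 : (0 : ℝ) ≤ -(951 / 1000) - 20 / 17 * (7 - 1) ^ 2 / 128 - 8 / 3 * (1 / 1000)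
      + 8 / 3 * (482 / 1000) := by norm_num
  have h2 : (0 : ℝ) ≤ 1 / (4 * (8 / 3) * (798 / 100000)) - (-126872 / 10000 + 34906 / 10000 * 7) := by
    norm_num
  have h3 := mul_nonneg (sq_nonneg ((8 / 3 - 1) * H721.wf g + -7 / 25 - 473 / 1200 * (H721.wf g + H721.r1 g ^ 2)
        - 11 / 24 * H721.r1 g ^ 2)) h2
  linarith

theorem phiB_b6 {g : ℝ} (h : 0 ≤ Phi6 12 (321 / 100000) (-775 / 1000) g) :
    0 ≤ SP425.PhiB (8 / 3) (951 / 1000) (-168 / 100) (-17 / 75) (-7 / 25) (-22 / 25) (1 / 750)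
      (7 / 375) (473 / 1200) (11 / 24) (20 / 17) (1 / 1000) (27 / 2048) (121 / 7680) (289 / 375) 12
      (-126872 / 10000 + 34906 / 10000 * 12) g (H721.r1 g) (H721.wf g) (H721.th g)
      (H721.wf g + H721.r1 g ^ 2) := by
  have e : SP425.PhiB (8 / 3) (951 / 1000) (-168 / 100) (-17 / 75) (-7 / 25) (-22 / 25) (1 / 750)
      (7 / 375) (473 / 1200) (11 / 24) (20 / 17) (1 / 1000) (27 / 2048) (121 / 7680) (289 / 375) 12
      (-126872 / 10000 + 34906 / 10000 * 12) g (H721.r1 g) (H721.wf g) (H721.th g)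
      (H721.wf g + H721.r1 g ^ 2) = 8 / 3 * Phi6 12 (321 / 100000) (-775 / 1000) g
      + (-(951 / 1000) - 20 / 17 * (12 - 1) ^ 2 / 128 - 8 / 3 * (1 / 1000) + 8 / 3 * (775 / 1000))
      + ((8 / 3 - 1) * H721.wf g + -7 / 25 - 473 / 1200 * (H721.wf g + H721.r1 g ^ 2)
        - 11 / 24 * H721.r1 g ^ 2) ^ 2
        * (1 / (4 * (8 / 3) * (321 / 100000)) - (-126872 / 10000 + 34906 / 10000 * 12)) := by
    unfold SP425.PhiB Phi6 PHI VV
    ring
  rw [e]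
  have h1 : (0 : ℝ) ≤ -(951 / 1000) - 20 / 17 * (12 - 1) ^ 2 / 128 - 8 / 3 * (1 / 1000)
      + 8 / 3 * (775 / 1000) := by norm_num
  have h2 : (0 : ℝ) ≤ 1 / (4 * (8 / 3) * (321 / 100000)) - (-126872 / 10000 + 34906 / 10000 * 12) := by
    norm_num
  have h3 := mul_nonneg (sq_nonneg ((8 / 3 - 1) * H721.wf g + -7 / 25 - 473 / 1200 * (H721.wf g + H721.r1 g ^ 2)
        - 11 / 24 * H721.r1 g ^ 2)) h2
  linarith

/-- **the range `[7,12]`** -/
theorem pw712 (ha : ∀ g, 0 ≤ Phi6 7 (798 / 100000) (-482 / 1000) g)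
    (hb : ∀ g, 0 ≤ Phi6 12 (321 / 100000) (-775 / 1000) g) {q : ℝ} (h7 : 7 ≤ q) (h12 : q ≤ 12) :
    SP38.PW F1inst q (2 / 25) 10 (1 / 1000) (wfam F1inst) bfam 0 (m712 q) where
  c_pos := by norm_num [m712]
  σ_pos := by norm_num [m712]
  L6_nonneg := by norm_num [m712]
  ker := by
    intro x y
    have hp : 0 < F1inst.r' x := F1inst.r'_pos x
    have hs : Real.sqrt (F1inst.r' x) ≠ 0 := (Real.sqrt_pos.2 hp).ne'
    have e : 11 / 12 * Real.sqrt (F1inst.r' x) * (ktot F1inst (43 / 100) (1 / 2) x y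
        / Real.sqrt (F1inst.r' x)) = 11 / 12 * ktot F1inst (43 / 100) (1 / 2) x y := by
      field_simp
    have e2 : (∑ i, (m712 q).γ i x * wfam F1inst i x y) = 3 / 4 * ck F1inst x y
        + 11 / 12 * Real.sqrt (F1inst.r' x)
        * (ktot F1inst (43 / 100) (1 / 2) x y / Real.sqrt (F1inst.r' x)) := by
      rw [Fin.sum_univ_three]
      simp [m712, wfam]
    rw [e2, e]
    unfold ktot m712
    ring
  formA := by
    intro g f al k1
    have h := formA712 (S := F1inst.r' g) (F1inst.r'_pos g).le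
      (le_of_lt (H156.r1_lt_half g)) f al k1
    exact h
  formB := by
    intro g x y ze ka _
    have e1 : F1inst.r' g = H721.r1 g := H674.br_r1 g
    have e2 : F1inst.r'' g = H721.r2 g := H674.br_r2 g
    have h := SP425.formB_one (c := 8 / 3) (Pc := 8 / 3 - (1 + 1 / (3 / 5)) / 16) (ν := 2 / 25)
      (ρ := 1 / 1000) (b2 := 30) (b3 := 4) (b4 := 5) (ℓ := 8 / 3 * Real.log (8 / 3) - 8 / 3 + 1)
      (ℓ' := 951 / 1000) (L1 := -168 / 100) (l2 := -17 / 75) (l3 := -7 / 25) (L4 := -22 / 25)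
      (L5 := 1 / 750) (L6 := 589 / 375) (T0 := 7 / 375) (Mt := 473 / 1200) (B4 := 11 / 24)
      (kp := 20 / 17) (e1 := 27 / 2048) (e2 := 121 / 7680) (Y := 289 / 375) (γ1 := 3 / 4)
      (γ2 := 11 / 12 * Real.sqrt (H721.r1 g)) (α := -126872 / 10000) (β := 34906 / 10000) (q := q)
      (q0 := 7) (q1 := 12) (g := g) (S := H721.r1 g) (w := H721.wf g) (θ := H721.th g)
      (θ1 := H721.wf g + H721.r1 g ^ 2) (r2 := H721.r2 g) x y ze (ka 0) (ka 1) (ka 2)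
      (by norm_num) (by norm_num) (by norm_num) h7 h12 (by norm_num) (by norm_num) (by norm_num)
      (H721.key8 g) (by norm_num) (by norm_num) log_83 (by norm_num)
      (by rw [mul_pow, Real.sq_sqrt (H721.r1_pos g).le]; exact le_of_eq (by ring))
      (by norm_num) (by norm_num) (by norm_num) (by norm_num) (by norm_num) (by norm_num)
      (phiB_a6 (ha g)) (phiB_b6 (hb g))
    have i3 : (∑ i, (m712 q).γ i g * ka i) = 3 / 4 * ka 1 + 11 / 12 * Real.sqrt (H721.r1 g) * ka 2 := by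
      rw [Fin.sum_univ_three]
      show 0 * ka 0 + 3 / 4 * ka 1 + 11 / 12 * Real.sqrt (F1inst.r' g) * ka 2 = _
      rw [e1]
      ring
    have i4 : ∑ i, (8 / 3 : ℝ) * bfam i * q⁻¹ * ka i ^ 2 = 8 / 3 * 30 * q⁻¹ * ka 0 ^ 2
        + 8 / 3 * 4 * q⁻¹ * ka 1 ^ 2 + 8 / 3 * 5 * q⁻¹ * ka 2 ^ 2 := by
      rw [Fin.sum_univ_three]
      simp [bfam]
    unfold SP38.FormB
    rw [i3, H674.br_w, H674.br_th, H674.br_th1, e1, e2]
    show (0 : ℝ) ≤ -((8 / 3 - (1 + 1 / (3 / 5)) / 16) * y ^ 2)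
      - (H721.r1 g * y + (q - 1) * H721.r2 g * x + H721.r2 g * ze + ka 0 - 1 / 4 * y) ^ 2
      + (8 / 3 - 1) * ((q - 1) * (H721.wf g * x ^ 2) + H721.wf g * x * ze + H721.th g * x * y)
      - (8 / 3 * Real.log (8 / 3) - 8 / 3 + 1) * x ^ 2
      + -168 / 100 * (x * y) + (-17 / 75 + 7 / 375) * (g * x * y - y ^ 2)
      + (-7 / 25 + 7 / 375 + 20 / 17 * (q - 1) / 64) * (x * ze)
      + -22 / 25 * (g * x ^ 2) - 1 / 750 * q * x ^ 2
      + 7 / 375 * (g * g * x ^ 2 - g * x * y - 1 * x * (q * x + ze))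
      + 473 / 1200 * (H721.th g * g * x ^ 2 - H721.th g * x * y
        - (H721.wf g + H721.r1 g ^ 2) * x * (q * x + ze))
      + 0 * (F1inst.r g * g * x ^ 2 - F1inst.r g * x * y - H721.r1 g * x * (q * x + ze))
      - 11 / 24 * (H721.r1 g ^ 2 * x * (q * x + ze))
      + 2 * (589 / 375) * y ^ 2 + x * (3 / 4 * ka 1 + 11 / 12 * Real.sqrt (H721.r1 g) * ka 2)
      + 8 / 3 * (2 / 25) * q⁻¹ * ze ^ 2 + ∑ i, (8 / 3 : ℝ) * bfam i * q⁻¹ * ka i ^ 2
      - 8 / 3 * (1 / 1000) * (y ^ 2 + min 1 ((q - 1) ^ 2) * x ^ 2)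
    rw [i4]
    linarith

end Vale.Agent.P254.SP20
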